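import Mathlib

/-!
# P254, block K3: the harmonic mean velocity

`D = U diag d Uᵀ` positive semidefinite, `Z` symmetric.
`X = - U ((Uᵀ Z U)_ij d_i d_j / (d_i + d_j)) Uᵀ` and `J = - U ((Uᵀ Z U)_ij d_j / (d_i + d_j)) Uᵀ`
satisfy `X = D J = Jᵀ D`, `D (J + Jᵀ + Z) = 0`, hence `X D + D X = - D Z D` (so that `J` plays the
role of `D⁻¹ X` although `D` may be singular), and `-C D ≤ X ≤ C D`.
-/

open Matrix

noncomputable section

namespace Vale.Agent.P254.H164

variable {n : ℕ}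

theorem spec {A : Matrix (Fin n) (Fin n) ℝ} (hH : A.IsHermitian) :
    ∃ (U : Matrix (Fin n) (Fin n) ℝ) (lam : Fin n → ℝ), Uᵀ * U = 1 ∧ U * Uᵀ = 1 ∧
      A = U * Matrix.diagonal lam * Uᵀ ∧ lam = hH.eigenvalues := by
  obtain ⟨U, hU⟩ : ∃ U : Matrix (Fin n) (Fin n) ℝ, U = hH.eigenvectorUnitary.val := ⟨_, rfl⟩
  have h1 : Uᵀ * U = 1 := by
    rw [hU]
    have := Unitary.coe_star_mul_self hH.eigenvectorUnitary
    simpa [Matrix.star_eq_conjTranspose, Matrix.conjTranspose_eq_transpose_of_trivial] using this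
  have h2 : U * Uᵀ = 1 := by
    rw [hU]
    have := Unitary.coe_mul_star_self hH.eigenvectorUnitary
    simpa [Matrix.star_eq_conjTranspose, Matrix.conjTranspose_eq_transpose_of_trivial] using this
  have h3 : A = U * Matrix.diagonal hH.eigenvalues * Uᵀ := by
    rw [hU]
    have := hH.spectral_theorem
    rw [Unitary.conjStarAlgAut_apply] at this
    simpa [Matrix.star_eq_conjTranspose, Matrix.conjTranspose_eq_transpose_of_trivial] using this
  exact ⟨U, _, h1, h2, h3, rfl⟩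

theorem spec_psd {D : Matrix (Fin n) (Fin n) ℝ} (hD : D.PosSemidef) :
    ∃ (U : Matrix (Fin n) (Fin n) ℝ) (d : Fin n → ℝ), Uᵀ * U = 1 ∧ U * Uᵀ = 1 ∧
      (∀ i, 0 ≤ d i) ∧ D = U * Matrix.diagonal d * Uᵀ := by
  obtain ⟨U, lam, h1, h2, h3, h4⟩ := spec hD.isHermitian
  exact ⟨U, lam, h1, h2, fun i => by rw [h4]; exact hD.eigenvalues_nonneg i, h3⟩

/-- half of the harmonic mean -/
def hm (a b : ℝ) : ℝ := a * b / (a + b)

theorem hm_comm (a b : ℝ) : hm a b = hm b a := by unfold hm; rw [mul_comm, add_comm]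

theorem hm_nonneg {a b : ℝ} (ha : 0 ≤ a) (hb : 0 ≤ b) : 0 ≤ hm a b :=
  div_nonneg (mul_nonneg ha hb) (add_nonneg ha hb)

theorem hm_add_mul {a b : ℝ} (ha : 0 ≤ a) (hb : 0 ≤ b) : hm a b * (a + b) = a * b := by
  unfold hm
  rcases (add_nonneg ha hb).eq_or_lt with h | h
  · have h1 : a = 0 := by linarith
    simp [h1]
  · exact div_mul_cancel₀ _ h.ne'

/-- `hm a b = a * (b / (a + b))` -/
theorem hm_eq (a b : ℝ) : hm a b = a * (b / (a + b)) := by unfold hm; ring

/-- `4 hm a b x y ≤ a x² + b y²` -/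
theorem hm_le {a b : ℝ} (ha : 0 ≤ a) (hb : 0 ≤ b) (x y : ℝ) :
    4 * (hm a b * (x * y)) ≤ a * x ^ 2 + b * y ^ 2 := by
  rcases (add_nonneg ha hb).eq_or_lt with h | h
  · have h1 : a = 0 := by linarith
    have h2 : b = 0 := by linarith
    simp [hm, h1, h2]
  · have h3 : (a * x ^ 2 + b * y ^ 2) - 4 * (hm a b * (x * y)) =
        ((a * x - b * y) ^ 2 + a * b * (x - y) ^ 2) / (a + b) := by
      unfold hm; field_simp; ring
    have h4 : 0 ≤ ((a * x - b * y) ^ 2 + a * b * (x - y) ^ 2) / (a + b) := by positivity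
    linarith

/-- the velocity -/
def harmX (U : Matrix (Fin n) (Fin n) ℝ) (d : Fin n → ℝ) (Z : Matrix (Fin n) (Fin n) ℝ) :
    Matrix (Fin n) (Fin n) ℝ :=
  U * (Matrix.of fun i j => -((Uᵀ * Z * U) i j * hm (d i) (d j))) * Uᵀ

/-- `D⁻¹ X` -/
def harmJ (U : Matrix (Fin n) (Fin n) ℝ) (d : Fin n → ℝ) (Z : Matrix (Fin n) (Fin n) ℝ) :
    Matrix (Fin n) (Fin n) ℝ :=
  U * (Matrix.of fun i j => -((Uᵀ * Z * U) i j * (d j / (d i + d j)))) * Uᵀ

section linear

variable (U : Matrix (Fin n) (Fin n) ℝ) (d : Fin n → ℝ)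

theorem harmX_add (Z W : Matrix (Fin n) (Fin n) ℝ) :
    harmX U d (Z + W) = harmX U d Z + harmX U d W := by
  unfold harmX
  rw [← Matrix.add_mul, ← Matrix.mul_add]
  congr 2
  ext i j
  simp only [Matrix.mul_add, Matrix.add_mul, Matrix.of_apply, Matrix.add_apply]
  ring

theorem harmX_smul (c : ℝ) (Z : Matrix (Fin n) (Fin n) ℝ) :
    harmX U d (c • Z) = c • harmX U d Z := by
  unfold harmX
  rw [← Matrix.smul_mul, ← Matrix.mul_smul]
  congr 2
  ext i j
  simp only [Matrix.mul_smul, Matrix.smul_mul, Matrix.of_apply, Matrix.smul_apply, smul_eq_mul]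
  ring

end linear

section

variable {U : Matrix (Fin n) (Fin n) ℝ} {d : Fin n → ℝ} {Z : Matrix (Fin n) (Fin n) ℝ}

theorem conj_apply_symm (hZ : Zᵀ = Z) (i j : Fin n) : (Uᵀ * Z * U) i j = (Uᵀ * Z * U) j i := by
  have h : (Uᵀ * Z * U)ᵀ = Uᵀ * Z * U := by
    rw [Matrix.transpose_mul, Matrix.transpose_mul, Matrix.transpose_transpose, hZ,
      Matrix.mul_assoc]
  conv_lhs => rw [← h]
  rfl

theorem harmX_symm (hZ : Zᵀ = Z) : (harmX U d Z)ᵀ = harmX U d Z := by
  have h : (Matrix.of fun i j => -((Uᵀ * Z * U) i j * hm (d i) (d j)) :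
      Matrix (Fin n) (Fin n) ℝ)ᵀ =
      Matrix.of fun i j => -((Uᵀ * Z * U) i j * hm (d i) (d j)) := by
    ext i j
    simp only [Matrix.transpose_apply, Matrix.of_apply]
    rw [conj_apply_symm hZ j i, hm_comm]
  unfold harmX
  rw [Matrix.transpose_mul, Matrix.transpose_mul, Matrix.transpose_transpose, h]
  exact (Matrix.mul_assoc _ _ _).symm

/-- `X = D J` -/
theorem harmX_eq_mul (h1 : Uᵀ * U = 1) :
    harmX U d Z = U * Matrix.diagonal d * Uᵀ * harmJ U d Z := by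
  unfold harmX harmJ
  calc U * (Matrix.of fun i j => -((Uᵀ * Z * U) i j * hm (d i) (d j))) * Uᵀ
      = U * (Matrix.diagonal d *
          (Matrix.of fun i j => -((Uᵀ * Z * U) i j * (d j / (d i + d j))))) * Uᵀ := by
        congr 2
        ext i j
        rw [Matrix.diagonal_mul]
        simp only [Matrix.of_apply]
        rw [hm_eq]; ring
    _ = U * Matrix.diagonal d * (Uᵀ * U) *
          (Matrix.of fun i j => -((Uᵀ * Z * U) i j * (d j / (d i + d j)))) * Uᵀ := by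
        rw [h1, Matrix.mul_one]; simp only [Matrix.mul_assoc]
    _ = _ := by simp only [Matrix.mul_assoc]

/-- `X = Jᵀ D` -/
theorem harmX_eq_mul' (h1 : Uᵀ * U = 1) (hZ : Zᵀ = Z) :
    harmX U d Z = (harmJ U d Z)ᵀ * (U * Matrix.diagonal d * Uᵀ) := by
  have h := congrArg Matrix.transpose (harmX_eq_mul (d := d) (Z := Z) h1)
  rw [harmX_symm hZ, Matrix.transpose_mul] at h
  rw [h]
  congr 1
  rw [Matrix.transpose_mul, Matrix.transpose_mul, Matrix.transpose_transpose,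
    Matrix.diagonal_transpose, Matrix.mul_assoc]

/-- `D (J + Jᵀ + Z) = 0` -/
theorem harm_mul_add (h1 : Uᵀ * U = 1) (h2 : U * Uᵀ = 1) (hd : ∀ i, 0 ≤ d i) (hZ : Zᵀ = Z) :
    U * Matrix.diagonal d * Uᵀ * (harmJ U d Z + (harmJ U d Z)ᵀ + Z) = 0 := by
  have hZ' : Z = U * (Uᵀ * Z * U) * Uᵀ := by
    calc Z = (U * Uᵀ) * Z * (U * Uᵀ) := by rw [h2]; simp
      _ = _ := by simp only [Matrix.mul_assoc]
  have hJ : harmJ U d Z + (harmJ U d Z)ᵀ + Z =
      U * (Matrix.of fun i j => (Uᵀ * Z * U) i j *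
        (1 - d j / (d i + d j) - d i / (d i + d j))) * Uᵀ := by
    conv_lhs => rw [hZ']
    unfold harmJ
    rw [Matrix.transpose_mul, Matrix.transpose_mul, Matrix.transpose_transpose]
    have e : Uᵀ * (U * (Uᵀ * Z * U) * Uᵀ) * U = Uᵀ * Z * U := by
      calc Uᵀ * (U * (Uᵀ * Z * U) * Uᵀ) * U = (Uᵀ * U) * (Uᵀ * Z * U) * (Uᵀ * U) := by
            simp only [Matrix.mul_assoc]
        _ = _ := by rw [h1]; simp
    rw [e, ← Matrix.mul_assoc U _ Uᵀ, ← Matrix.add_mul, ← Matrix.mul_add, ← Matrix.add_mul,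
      ← Matrix.mul_add]
    congr 2
    ext i j
    simp only [Matrix.add_apply, Matrix.transpose_apply, Matrix.of_apply]
    rw [conj_apply_symm hZ j i, add_comm (d j) (d i)]
    ring
  rw [hJ]
  calc U * Matrix.diagonal d * Uᵀ * (U * (Matrix.of fun i j => (Uᵀ * Z * U) i j *
        (1 - d j / (d i + d j) - d i / (d i + d j))) * Uᵀ)
      = U * (Matrix.diagonal d * (Uᵀ * U) * (Matrix.of fun i j => (Uᵀ * Z * U) i j *
        (1 - d j / (d i + d j) - d i / (d i + d j)))) * Uᵀ := by simp only [Matrix.mul_assoc]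
    _ = U * 0 * Uᵀ := by
        rw [h1, Matrix.mul_one]
        congr 2
        ext i j
        rw [Matrix.diagonal_mul]
        simp only [Matrix.of_apply, Matrix.zero_apply]
        rcases (hd i).eq_or_lt with h | h
        · rw [← h]; ring
        · have : d i + d j ≠ 0 := by have := hd j; positivity
          field_simp
          ring
    _ = 0 := by simp

/-- `(J + Jᵀ + Z) D = 0` -/
theorem harm_add_mul (h1 : Uᵀ * U = 1) (h2 : U * Uᵀ = 1) (hd : ∀ i, 0 ≤ d i) (hZ : Zᵀ = Z) :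
    (harmJ U d Z + (harmJ U d Z)ᵀ + Z) * (U * Matrix.diagonal d * Uᵀ) = 0 := by
  have h := congrArg Matrix.transpose (harm_mul_add h1 h2 hd hZ)
  rw [Matrix.transpose_mul, Matrix.transpose_zero] at h
  have e1 : (U * Matrix.diagonal d * Uᵀ)ᵀ = U * Matrix.diagonal d * Uᵀ := by
    rw [Matrix.transpose_mul, Matrix.transpose_mul, Matrix.transpose_transpose,
      Matrix.diagonal_transpose, Matrix.mul_assoc]
  have e2 : (harmJ U d Z + (harmJ U d Z)ᵀ + Z)ᵀ = harmJ U d Z + (harmJ U d Z)ᵀ + Z := by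
    rw [Matrix.transpose_add, Matrix.transpose_add, Matrix.transpose_transpose, hZ,
      add_comm (harmJ U d Z)ᵀ]
  rwa [e1, e2] at h

/-- `-C D ≤ X ≤ C D` with `C = ∑ |(Uᵀ Z U)_ij|` -/
theorem harmX_bound (hd : ∀ i, 0 ≤ d i) (hZ : Zᵀ = Z) (σ : ℝ) (hσ : |σ| ≤ 1) :
    ((∑ i, ∑ j, |(Uᵀ * Z * U) i j|) • (U * Matrix.diagonal d * Uᵀ) + σ • harmX U d Z).PosSemidef := by
  set C := ∑ i, ∑ j, |(Uᵀ * Z * U) i j| with hC
  have e : C • (U * Matrix.diagonal d * Uᵀ) + σ • harmX U d Z =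
      U * (C • Matrix.diagonal d +
        σ • (Matrix.of fun i j => -((Uᵀ * Z * U) i j * hm (d i) (d j)))) * Uᴴ := by
    rw [Matrix.conjTranspose_eq_transpose_of_trivial]
    unfold harmX
    simp only [Matrix.mul_add, Matrix.add_mul, Matrix.mul_smul, Matrix.smul_mul]
  rw [e]
  apply Matrix.PosSemidef.mul_mul_conjTranspose_same
  apply Matrix.PosSemidef.of_dotProduct_mulVec_nonneg
  · rw [Matrix.IsHermitian, Matrix.conjTranspose_eq_transpose_of_trivial, Matrix.transpose_add,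
      Matrix.transpose_smul, Matrix.transpose_smul, Matrix.diagonal_transpose]
    congr 2
    ext i j
    simp only [Matrix.transpose_apply, Matrix.of_apply]
    rw [conj_apply_symm hZ j i, hm_comm]
  · intro x
    have hx : star x = x := by ext i; simp
    have key : ∀ i j, -(|(Uᵀ * Z * U) i j| * ∑ k, d k * x k ^ 2) ≤
        σ * (x i * (-((Uᵀ * Z * U) i j * hm (d i) (d j)) * x j)) := by
      intro i j
      have hi : d i * x i ^ 2 ≤ ∑ k, d k * x k ^ 2 :=
        Finset.single_le_sum (f := fun k => d k * x k ^ 2)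
          (fun k _ => mul_nonneg (hd k) (sq_nonneg _)) (Finset.mem_univ i)
      have hj : d j * x j ^ 2 ≤ ∑ k, d k * x k ^ 2 :=
        Finset.single_le_sum (f := fun k => d k * x k ^ 2)
          (fun k _ => mul_nonneg (hd k) (sq_nonneg _)) (Finset.mem_univ j)
      have h1 := hm_le (hd i) (hd j) (x i) (x j)
      have h2 := hm_le (hd i) (hd j) (x i) (-x j)
      have h0 : 0 ≤ ∑ k, d k * x k ^ 2 :=
        Finset.sum_nonneg fun k _ => mul_nonneg (hd k) (sq_nonneg _)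
      have h3 : |hm (d i) (d j) * (x i * x j)| ≤ ∑ k, d k * x k ^ 2 := by
        rw [abs_le]
        constructor
        · have : 4 * (hm (d i) (d j) * (x i * -x j)) = -(4 * (hm (d i) (d j) * (x i * x j))) := by
            ring
          nlinarith
        · linarith
      have h4 : |σ * (x i * (-((Uᵀ * Z * U) i j * hm (d i) (d j)) * x j))| ≤
          |(Uᵀ * Z * U) i j| * ∑ k, d k * x k ^ 2 := by
        have e : σ * (x i * (-((Uᵀ * Z * U) i j * hm (d i) (d j)) * x j)) =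
            -(σ * ((Uᵀ * Z * U) i j * (hm (d i) (d j) * (x i * x j)))) := by ring
        rw [e, abs_neg, abs_mul, abs_mul]
        calc |σ| * (|(Uᵀ * Z * U) i j| * |hm (d i) (d j) * (x i * x j)|)
            ≤ 1 * (|(Uᵀ * Z * U) i j| * |hm (d i) (d j) * (x i * x j)|) := by
              apply mul_le_mul_of_nonneg_right hσ; positivity
          _ ≤ 1 * (|(Uᵀ * Z * U) i j| * ∑ k, d k * x k ^ 2) := by
              gcongr
          _ = _ := one_mul _
      exact neg_le_of_abs_le h4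
    have hsum : ∑ i, ∑ j, -(|(Uᵀ * Z * U) i j| * ∑ k, d k * x k ^ 2) ≤
        ∑ i, ∑ j, σ * (x i * (-((Uᵀ * Z * U) i j * hm (d i) (d j)) * x j)) :=
      Finset.sum_le_sum fun i _ => Finset.sum_le_sum fun j _ => key i j
    have hL : ∑ i, ∑ j, -(|(Uᵀ * Z * U) i j| * ∑ k, d k * x k ^ 2) =
        -(C * ∑ k, d k * x k ^ 2) := by
      rw [hC, Finset.sum_mul, ← Finset.sum_neg_distrib]
      refine Finset.sum_congr rfl fun i _ => ?_
      rw [Finset.sum_mul, ← Finset.sum_neg_distrib]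
    have hR : star x ⬝ᵥ ((C • Matrix.diagonal d +
        σ • (Matrix.of fun i j => -((Uᵀ * Z * U) i j * hm (d i) (d j)))) *ᵥ x) =
        C * ∑ k, d k * x k ^ 2 +
          ∑ i, ∑ j, σ * (x i * (-((Uᵀ * Z * U) i j * hm (d i) (d j)) * x j)) := by
      rw [hx, Matrix.add_mulVec, dotProduct_add, Matrix.smul_mulVec, Matrix.smul_mulVec,
        dotProduct_smul, dotProduct_smul, smul_eq_mul, smul_eq_mul]
      congr 1
      · congr 1
        simp only [dotProduct, Matrix.mulVec_diagonal]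
        exact Finset.sum_congr rfl fun k _ => by ring
      · simp only [dotProduct, Matrix.mulVec, Matrix.of_apply]
        rw [Finset.mul_sum]
        refine Finset.sum_congr rfl fun i _ => ?_
        rw [Finset.mul_sum, Finset.mul_sum]
    rw [hR]
    linarith

end

/-- **The harmonic mean velocity.** For `D` positive semidefinite and `Z` symmetric there are a
symmetric `X` and a matrix `J` (the matrix `D⁻¹ X` if `D` is invertible) with `X = D J = Jᵀ D`,
`D (J + Jᵀ + Z) = 0 = (J + Jᵀ + Z) D` and `-C D ≤ X ≤ C D`. -/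
theorem exists_harm {D Z : Matrix (Fin n) (Fin n) ℝ} (hD : D.PosSemidef) (hZ : Zᵀ = Z) :
    ∃ X J : Matrix (Fin n) (Fin n) ℝ, Xᵀ = X ∧ X = D * J ∧ X = Jᵀ * D ∧
      D * (J + Jᵀ + Z) = 0 ∧ (J + Jᵀ + Z) * D = 0 ∧
      ∃ C : ℝ, (C • D - X).PosSemidef ∧ (C • D + X).PosSemidef := by
  obtain ⟨U, lam, h1, h2, h3, h4⟩ := spec hD.isHermitian
  have hd : ∀ i, 0 ≤ lam i := fun i => by rw [h4]; exact hD.eigenvalues_nonneg i
  refine ⟨harmX U lam Z, harmJ U lam Z, harmX_symm hZ, ?_, ?_, ?_, ?_,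
    ∑ i, ∑ j, |(Uᵀ * Z * U) i j|, ?_, ?_⟩
  · rw [h3]; exact harmX_eq_mul h1
  · rw [h3]; exact harmX_eq_mul' h1 hZ
  · rw [h3]; exact harm_mul_add h1 h2 hd hZ
  · rw [h3]; exact harm_add_mul h1 h2 hd hZ
  · rw [h3]
    have := harmX_bound (U := U) hd hZ (-1) (by simp)
    rwa [neg_one_smul, ← sub_eq_add_neg] at this
  · rw [h3]
    have := harmX_bound (U := U) hd hZ 1 (by simp)
    rwa [one_smul] at this

/-! ### Consequences of the two relations `X = D J = Jᵀ D`, `D (J + Jᵀ + Z) = 0` -/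

section cons

variable {D X J Z : Matrix (Fin n) (Fin n) ℝ}

/-- Lyapunov equation -/
theorem lyap (h1 : X = D * J) (h2 : X = Jᵀ * D) (h3 : D * (J + Jᵀ + Z) = 0) :
    X * D + D * X = -(D * Z * D) := by
  have e1 : X * D = D * J * D := by rw [h1]
  have e2 : D * X = D * Jᵀ * D := by rw [h2, Matrix.mul_assoc]
  have e3 : D * (J + Jᵀ + Z) * D = 0 := by rw [h3, Matrix.zero_mul]
  rw [Matrix.mul_add, Matrix.mul_add, Matrix.add_mul, Matrix.add_mul] at e3
  rw [e1, e2]
  exact eq_neg_of_add_eq_zero_left e3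

/-- `2 tr (Z D X) = - tr (D Z D Z)` -/
theorem tr_ZDX (hD : Dᵀ = D) (hX : Xᵀ = X) (hZ : Zᵀ = Z) (h1 : X = D * J) (h2 : X = Jᵀ * D)
    (h3 : D * (J + Jᵀ + Z) = 0) : 2 * (Z * D * X).trace = -(D * Z * D * Z).trace := by
  have e := congrArg (fun M => (M * Z).trace) (lyap h1 h2 h3)
  simp only [Matrix.add_mul, Matrix.neg_mul, Matrix.trace_add, Matrix.trace_neg] at e
  have e1 : (X * D * Z).trace = (Z * D * X).trace := by
    rw [← Matrix.trace_transpose (X * D * Z), Matrix.transpose_mul, Matrix.transpose_mul, hD, hX,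
      hZ, Matrix.mul_assoc]
  have e2 : (D * X * Z).trace = (Z * D * X).trace := by
    rw [Matrix.trace_mul_comm (D * X) Z, ← Matrix.mul_assoc]
  linarith

/-- `2 tr (Z X D) = - tr (D Z D Z)` -/
theorem tr_ZXD (hD : Dᵀ = D) (hX : Xᵀ = X) (hZ : Zᵀ = Z) (h1 : X = D * J) (h2 : X = Jᵀ * D)
    (h3 : D * (J + Jᵀ + Z) = 0) : 2 * (Z * X * D).trace = -(D * Z * D * Z).trace := by
  rw [← tr_ZDX hD hX hZ h1 h2 h3]
  congr 1
  rw [← Matrix.trace_transpose (Z * X * D), Matrix.transpose_mul, Matrix.transpose_mul, hD, hX,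
    hZ, ← Matrix.mul_assoc, Matrix.trace_mul_comm (D * X) Z, ← Matrix.mul_assoc]

/-- `2 (tr (X X) + tr (Jᵀ X D)) = tr (D Z D Z)`, i.e. `2 |X|² + 2 tr (X D⁻¹ X D) = |Z|_D²` -/
theorem tr_quad (hD : Dᵀ = D) (hX : Xᵀ = X) (hZ : Zᵀ = Z) (h1 : X = D * J) (h2 : X = Jᵀ * D)
    (h3 : D * (J + Jᵀ + Z) = 0) :
    2 * ((X * X).trace + (Jᵀ * X * D).trace) = (D * Z * D * Z).trace := by
  have e1 : (X * X).trace = (X * (D * J)).trace := by rw [← h1]
  have e2 : (Jᵀ * X * D).trace = (X * (D * Jᵀ)).trace := by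
    rw [Matrix.mul_assoc, Matrix.trace_mul_comm, Matrix.mul_assoc]
  have e3 : (X * (D * J)).trace + (X * (D * Jᵀ)).trace = -(X * (D * Z)).trace := by
    have h := congrArg (fun M => (X * M).trace) h3
    simp only [Matrix.mul_add, Matrix.trace_add, Matrix.mul_zero, Matrix.trace_zero] at h
    linarith
  have e4 : (X * (D * Z)).trace = (Z * X * D).trace := by
    rw [← Matrix.mul_assoc, Matrix.trace_mul_comm (X * D) Z, Matrix.mul_assoc]
  have e5 := tr_ZXD hD hX hZ h1 h2 h3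
  rw [e1, e2, e3, e4]
  linarith

end cons

end Vale.Agent.P254.H164
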